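import Vale.Agent.P242.Emb

open MeasureTheory Set Metric Filter
open scoped ENNReal Topology

namespace Vale.Agent.Results.P242.HilbertEmbedding

open Vale.Agent.P242

theorem result (n : ℕ) (hn : 2 ≤ n) : ∃ ε L : ℝ, 0 < ε ∧ 0 < L ∧
    ∀ (K : ℝ) (X : Type) [MetricSpace X] [CompleteSpace X] [SecondCountableTopology X]
      [MeasurableSpace X] [BorelSpace X],
      (μH[n] : Measure X).IsOpenPosMeasure →
      (∀ S : Set X, Bornology.IsBounded S → μH[n] S ≠ ⊤) →
      CD K n (μH[n] : Measure X) →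
      ∀ p : X, (∃ᶠ r in 𝓝[>] (0 : ℝ),
        ENNReal.ofReal ((1 - ε) * (2 * r) ^ n) ≤ μH[n] (ball p r)) →
      ∃ U : Set X, IsOpen U ∧ p ∈ U ∧
        ∃ (H : Type) (_ : NormedAddCommGroup H) (_ : InnerProductSpace ℝ H) (_ : CompleteSpace H)
          (F : X → H), ∀ x ∈ U, ∀ z ∈ U,
            L⁻¹ * dist x z ≤ ‖F x - F z‖ ∧ ‖F x - F z‖ ≤ L * dist x z := by
  obtain ⟨ε, hε⟩ : ∃ ε : ℝ, ε = (16 ^ n)⁻¹ / 18 := ⟨_, rfl⟩
  have ε0 : 0 < ε := hε ▸ by positivity
  have e1 : ε ≤ 1 / 18 := hε ▸ div_le_div_of_nonneg_right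
    (inv_le_one_of_one_le₀ (one_le_pow₀ (by norm_num))) (by norm_num)
  refine ⟨ε, 10 * 4 ^ n, ε0, by positivity, fun K X _ _ _ _ _ ho hf hCD p hp => ?_⟩
  have c : ContinuousAt (fun q : ℝ => q ^ (3 * n + 3)) 1 := by fun_prop
  obtain ⟨q, hQ, hq, hq'⟩ := (((c.eventually_lt continuousAt_const (show _ < 1 + ε by
    simpa using ε0)).filter_mono nhdsWithin_le_nhds).and
    (Ioc_mem_nhdsGT (show (1 : ℝ) < 9 / 8 by norm_num))).exists
  obtain ⟨R₀, R0, h⟩ := con hCD hn hf hq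
  obtain ⟨s, hs, s0, hs'⟩ := (hp.and_eventually (Ioc_mem_nhdsGT (show 0 < R₀ / 3 by linarith))).exists
  have pw : ∀ k ≤ 3 * n + 3, q ^ k ≤ 1 + ε := fun k hk => (pow_le_pow_right₀ hq.le hk).trans hQ.le
  have V0 : 0 < (2 * (q * s)) ^ n := by positivity
  have lo : ∀ x ∈ ball p ((q - 1) * s),
      (1 - 2 * ε) * (2 * (q * s)) ^ n ≤ (μH[n] : Measure X).real (ball x (q * s)) := fun x hx => by
    have a := (ENNReal.ofReal_le_iff_le_toReal (hf _ isBounded_ball)).1 (hs.trans (measure_mono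
      (ball_subset_ball' (y := x) (ε₂ := q * s) (by linarith [mem_ball'.1 hx]))))
    refine le_trans ?_ a
    rw [mul_left_comm 2, mul_pow q, ← mul_assoc]
    exact mul_le_mul_of_nonneg_right ((mul_le_mul_of_nonneg_left (pw n (by omega))
      (by linarith)).trans (by nlinarith)) (by positivity)
  obtain ⟨F, hF⟩ := emb (m := μH[n]) (p := p) (R := 2 * (q * s)) V0 (hf _ isBounded_ball)
  refine ⟨_, isOpen_ball, mem_ball_self (mul_pos (sub_pos.2 hq) s0), _, _, inferInstance,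
    inferInstance, F, fun x hx y hy => ⟨?_, ?_⟩⟩
  · rcases (dist_nonneg (x := x) (y := y)).eq_or_lt with r0 | r0
    · simp [← r0]
    have g := good hf h hq hε hQ.le hq' (by nlinarith) (fun x s => upper hf h hq x) (lo x hx)
      (lo y hy) r0 (by
        nlinarith [dist_triangle_right x y p, mem_ball.1 hx, mem_ball.1 hy])
    refine (sq_le_sq₀ (by positivity) (norm_nonneg _)).1 ?_
    refine le_trans ?_ ((hF x y).2 (ball x (q * s) ∩ {z | dist x y / 4 ≤ dist x z - dist y z})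
      (dist x y / 4) (measurableSet_ball.inter (isClosed_le continuous_const
      (by fun_prop)).measurableSet) (inter_subset_left.trans (ball_subset_ball'
        (by nlinarith [mem_ball.1 hx]))) (by positivity) fun z hz => hz.2)
    refine le_trans ?_ (mul_le_mul_of_nonneg_left ((le_div_iff₀ V0).2 g) (sq_nonneg _))
    rw [hε, show (16 : ℝ) ^ n = (4 ^ n) ^ 2 by rw [← pow_mul, pow_mul']; norm_num]
    field_simp
    norm_num
  · refine (sq_le_sq₀ (norm_nonneg _) (by positivity)).1 ((hF x y).1.trans ?_)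
    rw [mul_pow _ (dist x y), mul_comm (dist x y ^ 2)]
    refine mul_le_mul_of_nonneg_right ((div_le_iff₀ V0).2 ((upper hf h hq p (s := 2 * (q * s))
      (by positivity) (by nlinarith [mul_le_mul hq' hq' (by linarith) (by norm_num)])).trans ?_))
      (sq_nonneg _)
    rw [mul_pow 2, ← mul_assoc]
    refine mul_le_mul_of_nonneg_right ?_ V0.le
    have a : (2 : ℝ) ^ n ≤ 4 ^ n := pow_le_pow_left₀ zero_le_two (by norm_num) n
    have b : (1 : ℝ) ≤ 4 ^ n := one_le_pow₀ (by norm_num)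
    nlinarith [pw (2 * n + 2) (by omega), pow_pos (zero_lt_two' ℝ) n]

end Vale.Agent.Results.P242.HilbertEmbedding
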